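import Vale.Agent.P310.H630.Rel

/-!
P310: the numbers of leaves.
-/

namespace Vale.Agent.P310

/-- A numbering of the items gives admissible numbers of leaves. -/
theorem cntOk_of_idx {V E Sl : Type} [Fintype V] [Fintype E] [Fintype Sl] [DecidableEq Sl]
    (idx : V ⊕ E → ℕ) (hinj : Function.Injective idx) {B L : ℕ}
    (hB : Fintype.card (BaseV V E Sl) ≤ B) (h2 : 2 ≤ B) (hL : ∀ i, (idx i + 1) * B ≤ L) :
    CntOk V E Sl (fun i => (idx i + 1) * B) L where
  gap i j hij := by
    have h1 : idx i ≠ idx j := fun h => hij (hinj h)
    rcases Nat.lt_or_gt_of_ne h1 with h3 | h3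
    · left
      have h4 : (idx i + 1) * B + B ≤ (idx j + 1) * B := by
        have : (idx i + 1) * B + B = (idx i + 1 + 1) * B := by ring
        rw [this]
        exact Nat.mul_le_mul_right _ (by omega)
      omega
    · right
      have h4 : (idx j + 1) * B + B ≤ (idx i + 1) * B := by
        have : (idx j + 1) * B + B = (idx j + 1 + 1) * B := by ring
        rw [this]
        exact Nat.mul_le_mul_right _ (by omega)
      omega
  two i := by
    show 2 ≤ (idx i + 1) * B
    nlinarith [Nat.zero_le (idx i)]
  le := hL

end Vale.Agent.P310
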