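import Vale.Agent.P310.Graph
import Vale.Agent.P310.H593.WL

/-!
P310, G2: the generic Spoiler lemma on the graph of a parity system.  If the graphs for the right
hand sides `p` and `p'` are `k`-WL equivalent, we get a relation on `k`-tuples of base vertices that
preserves items, satisfaction and adjacency, and is closed under replacing one entry.
-/

namespace Vale.Agent.P310

open Function

namespace SlotSys

variable {V E Sl : Type} (S : SlotSys V E Sl) {p p' : E → ZMod 2} {cnt : V ⊕ E → ℕ} {L k : ℕ}

theorem BaseAdj.symm {x y : BaseV V E Sl} (h : S.BaseAdj p x y) : S.BaseAdj p y x := by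
  rcases x with ⟨v, s⟩ | ⟨e, α⟩ <;> rcases y with ⟨v', s'⟩ | ⟨e', α'⟩ <;> exact h

theorem BaseAdj.live {x y : BaseV V E Sl} (h : S.BaseAdj p x y) : S.Live p x := by
  rcases x with ⟨v, s⟩ | ⟨e, α⟩ <;> rcases y with ⟨v', s'⟩ | ⟨e', α'⟩
  · exact h.elim
  · trivial
  · exact h.1
  · exact h.elim

theorem BaseAdj.ne {x y : BaseV V E Sl} (h : S.BaseAdj p x y) : y ≠ x := by
  rcases x with ⟨v, s⟩ | ⟨e, α⟩ <;> rcases y with ⟨v', s'⟩ | ⟨e', α'⟩
  · exact h.elim
  · simp
  · simp
  · exact h.elim

/-- adjacency of base vertices in the graph -/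
theorem graph_adj_base (x y : BaseV V E Sl) :
    (S.graph p cnt L).Adj (x, 0) (y, 0) ↔ S.BaseAdj p x y := by
  simp [graph]

variable [Fintype V] [Fintype E] [Fintype Sl] [DecidableEq V] [DecidableEq E] [DecidableEq Sl]

open Classical in
theorem degree_ge {u : BaseV V E Sl} (hu : S.Live p u) (hL : cnt (item u) ≤ L) :
    cnt (item u) ≤ (S.graph p cnt L).degree (u, 0) := by
  rw [← SimpleGraph.card_neighborFinset_eq_degree]
  have h1 : ((Finset.range (cnt (item u))).attach.image fun l =>
      ((u, ⟨l.1 + 1, by have := Finset.mem_range.1 l.2; omega⟩) : CfiV V E Sl L)) ⊆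
      (S.graph p cnt L).neighborFinset (u, 0) := by
    intro y hy
    rw [Finset.mem_image] at hy
    obtain ⟨l, _, rfl⟩ := hy
    rw [SimpleGraph.mem_neighborFinset]
    refine Or.inr (Or.inl ⟨rfl, rfl, by simp, ?_⟩)
    exact ⟨hu, by simpa using Finset.mem_range.1 l.2⟩
  refine le_trans (le_of_eq ?_) (Finset.card_le_card h1)
  rw [Finset.card_image_of_injective, Finset.card_attach, Finset.card_range]
  intro l l' h
  simp only [Prod.mk.injEq, Fin.mk.injEq, true_and, Nat.add_right_cancel_iff] at h
  exact Subtype.ext h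

open Classical in
theorem degree_lt {u : BaseV V E Sl} :
    (S.graph p cnt L).degree (u, 0) < cnt (item u) + Fintype.card (BaseV V E Sl) := by
  rw [← SimpleGraph.card_neighborFinset_eq_degree]
  have h1 : (S.graph p cnt L).neighborFinset (u, 0) ⊆
      ((Finset.univ.erase u).image fun y => ((y, 0) : CfiV V E Sl L)) ∪
      ((Finset.univ.filter fun l : Fin (L + 1) => l.val ≠ 0 ∧ l.val - 1 < cnt (item u)).image
        fun l => ((u, l) : CfiV V E Sl L)) := by
    rintro ⟨y, l⟩ hy
    rw [SimpleGraph.mem_neighborFinset] at hy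
    rw [Finset.mem_union, Finset.mem_image, Finset.mem_image]
    rcases hy with ⟨_, h2, h3⟩ | ⟨h1, _, h3, h4⟩ | ⟨_, h2, h3, _⟩
    · refine Or.inl ⟨y, ?_, ?_⟩
      · rw [Finset.mem_erase]
        exact ⟨BaseAdj.ne S h3, Finset.mem_univ _⟩
      · simp only [Prod.mk.injEq, true_and]
        exact (Fin.ext h2).symm
    · refine Or.inr ⟨l, ?_, ?_⟩
      · rw [Finset.mem_filter]
        exact ⟨Finset.mem_univ _, h3, h4.2⟩
      · simp only [Prod.mk.injEq, and_true]
        exact h1
    · exact absurd rfl h3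
  have h2 := (Finset.card_le_card h1).trans (Finset.card_union_le _ _)
  have h3 : ((Finset.univ.erase u).image fun y => ((y, 0) : CfiV V E Sl L)).card <
      Fintype.card (BaseV V E Sl) := by
    refine lt_of_le_of_lt Finset.card_image_le ?_
    rw [Finset.card_erase_of_mem (Finset.mem_univ _), Finset.card_univ]
    have : 0 < Fintype.card (BaseV V E Sl) := Fintype.card_pos_iff.2 ⟨u⟩
    omega
  have h4 : ((Finset.univ.filter fun l : Fin (L + 1) =>
      l.val ≠ 0 ∧ l.val - 1 < cnt (item u)).image fun l => ((u, l) : CfiV V E Sl L)).card ≤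
      cnt (item u) := by
    refine Finset.card_image_le.trans ?_
    have h5 : (Finset.univ.filter fun l : Fin (L + 1) =>
        l.val ≠ 0 ∧ l.val - 1 < cnt (item u)).card ≤ (Finset.range (cnt (item u))).card := by
      refine Finset.card_le_card_of_injOn (fun l => l.val - 1) ?_ ?_
      · intro l hl
        rw [Finset.mem_coe, Finset.mem_filter] at hl
        simpa using hl.2.2
      · intro l hl l' hl' h
        rw [Finset.mem_coe, Finset.mem_filter] at hl hl'
        simp only at h
        apply Fin.ext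
        omega
    rwa [Finset.card_range] at h5
  omega

open Classical in
/-- A vertex whose degree is that of a live base vertex is a live base vertex of the same item. -/
theorem eq_of_degree (hgap : ∀ i j, i ≠ j → cnt i + Fintype.card (BaseV V E Sl) ≤ cnt j ∨
      cnt j + Fintype.card (BaseV V E Sl) ≤ cnt i) (h2 : ∀ i, 2 ≤ cnt i) (hL : ∀ i, cnt i ≤ L)
    {u : BaseV V E Sl} (hu : S.Live p u) {y : CfiV V E Sl L}
    (h : (S.graph p cnt L).degree (u, 0) = (S.graph p' cnt L).degree y) :
    ∃ u', y = (u', 0) ∧ S.Live p' u' ∧ item u' = item u := by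
  have h1 := S.degree_ge (L := L) hu (hL _)
  have h3 := h2 (item u)
  obtain ⟨u', l⟩ := y
  have h0 : 0 < (S.graph p' cnt L).degree (u', l) := by omega
  by_cases hl : l.val = 0
  · have hl0 : l = 0 := Fin.ext hl
    subst hl0
    have hlive : S.Live p' u' := by
      rw [SimpleGraph.degree_pos_iff_exists_adj] at h0
      obtain ⟨w, hw⟩ := h0
      rcases hw with ⟨_, _, h5⟩ | ⟨_, _, _, h6⟩ | ⟨_, _, h5, _⟩
      · exact BaseAdj.live S h5
      · exact h6.1
      · exact absurd rfl h5
    refine ⟨u', rfl, hlive, ?_⟩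
    by_contra hne
    have g1 := S.degree_ge (L := L) hlive (hL _)
    have g2 := S.degree_lt (p := p) (cnt := cnt) (L := L) (u := u)
    have g3 := S.degree_lt (p := p') (cnt := cnt) (L := L) (u := u')
    rcases hgap _ _ hne with g | g <;> omega
  · exfalso
    have h5 : (S.graph p' cnt L).degree (u', l) ≤ 1 := by
      rw [← SimpleGraph.card_neighborFinset_eq_degree]
      have h6 : (S.graph p' cnt L).neighborFinset (u', l) ⊆ {(u', 0)} := by
        rintro ⟨w, m⟩ hw
        rw [SimpleGraph.mem_neighborFinset] at hw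
        rw [Finset.mem_singleton]
        rcases hw with ⟨h7, _, _⟩ | ⟨_, h7, _, _⟩ | ⟨h7, h8, _, _⟩
        · exact absurd h7 hl
        · exact absurd h7 hl
        · simp only at h7 h8
          rw [h7]
          simp only [Prod.mk.injEq, true_and]
          exact Fin.ext h8
      exact (Finset.card_le_card h6).trans (by simp)
    omega

end SlotSys

variable {V E Sl : Type} [Fintype V] [Fintype E] [Fintype Sl] [DecidableEq V] [DecidableEq E]
  [DecidableEq Sl] {S : SlotSys V E Sl} {p p' : E → ZMod 2} {cnt : V ⊕ E → ℕ} {L k : ℕ}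

/-- the game relation on base vertices -/
def SlotSys.Rel (S : SlotSys V E Sl) (p p' : E → ZMod 2) (cnt : V ⊕ E → ℕ) (L k : ℕ)
    (x x' : Fin k → BaseV V E Sl) : Prop :=
  WLSame k (S.graph p cnt L) (S.graph p' cnt L) (fun i => (x i, 0)) (fun i => (x' i, 0))

/-- the hypotheses on the numbers of leaves -/
structure CntOk (V E Sl : Type) [Fintype V] [Fintype E] [Fintype Sl] [DecidableEq Sl]
    (cnt : V ⊕ E → ℕ) (L : ℕ) : Prop where
  gap : ∀ i j, i ≠ j → cnt i + Fintype.card (BaseV V E Sl) ≤ cnt j ∨
      cnt j + Fintype.card (BaseV V E Sl) ≤ cnt i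
  two : ∀ i, 2 ≤ cnt i
  le : ∀ i, cnt i ≤ L

omit [Fintype V] [Fintype E] [Fintype Sl] [DecidableEq V] [DecidableEq E] [DecidableEq Sl] in
theorem update_pair (x : Fin k → BaseV V E Sl) (i : Fin k) (u : BaseV V E Sl) :
    (fun j => ((update x i u j, 0) : CfiV V E Sl L)) =
      update (fun j => ((x j, 0) : CfiV V E Sl L)) i (u, 0) := by
  funext j
  by_cases h : j = i
  · subst h; simp
  · simp [update_of_ne h]

namespace SlotSys.Rel

/-- items and satisfaction are preserved -/
theorem live (hk : 2 ≤ k) (hc : CntOk V E Sl cnt L) {x x' : Fin k → BaseV V E Sl}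
    (h : S.Rel p p' cnt L k x x') (i : Fin k) (hx : S.Live p (x i)) :
    S.Live p' (x' i) ∧ item (x' i) = item (x i) := by
  classical
  have h1 := WLSame.degree h hk i
  obtain ⟨u', hu', h2, h3⟩ := S.eq_of_degree (p := p) (p' := p') hc.gap hc.two hc.le hx
    (y := (x' i, 0)) (by convert h1)
  have h4 : u' = x' i := by
    have := congrArg Prod.fst hu'
    exact this.symm
  subst h4
  exact ⟨h2, h3⟩

/-- every tuple of live base vertices has a partner -/
theorem total (hk : 2 ≤ k) (hc : CntOk V E Sl cnt L)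
    (h : WLEquiv k (S.graph p cnt L) (S.graph p' cnt L)) (x : Fin k → BaseV V E Sl)
    (hx : ∀ i, S.Live p (x i)) : ∃ x', S.Rel p p' cnt L k x x' := by
  classical
  obtain ⟨X', hX'⟩ := h.exists_same (fun i => (x i, 0))
  have h1 : ∀ i, ∃ u', X' i = (u', 0) := by
    intro i
    obtain ⟨u', hu', _⟩ := S.eq_of_degree (p := p) (p' := p') hc.gap hc.two hc.le (hx i)
      (y := X' i) (by convert WLSame.degree hX' hk i)
    exact ⟨u', hu'⟩
  choose x' hx' using h1
  have h2 : X' = fun i => (x' i, 0) := funext hx'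
  rw [h2] at hX'
  exact ⟨x', hX'⟩

/-- replacing one entry by a new live base vertex, simultaneously for all positions -/
theorem forth (hk : 2 ≤ k) (hc : CntOk V E Sl cnt L) {x x' : Fin k → BaseV V E Sl}
    (h : S.Rel p p' cnt L k x x') {u : BaseV V E Sl} (hu : S.Live p u) :
    ∃ u', S.Live p' u' ∧ item u' = item u ∧
      (∀ i, S.Rel p p' cnt L k (update x i u) (update x' i u')) ∧
      ∀ i, S.BaseAdj p u (x i) ↔ S.BaseAdj p' u' (x' i) := by
  classical
  obtain ⟨Y, hY⟩ := WLSame.forth h (u, 0)
  have hne : Nontrivial (Fin k) := Fin.nontrivial_iff_two_le.2 hk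
  obtain ⟨i0⟩ : Nonempty (Fin k) := inferInstance
  have h1 := WLSame.degree (hY i0) hk i0
  rw [update_self, update_self] at h1
  obtain ⟨u', rfl, h3, h4⟩ := S.eq_of_degree (p := p) (p' := p') hc.gap hc.two hc.le hu (y := Y)
    (by convert h1)
  refine ⟨u', h3, h4, ?_, ?_⟩
  · intro i
    have := hY i
    rw [← update_pair, ← update_pair] at this
    exact this
  · intro i
    obtain ⟨j, hj⟩ := exists_ne i
    have := WLSame.adj_iff (hY j) j i
    rw [update_self, update_self, update_of_ne hj.symm, update_of_ne hj.symm,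
      SlotSys.graph_adj_base, SlotSys.graph_adj_base] at this
    exact this

end SlotSys.Rel

end Vale.Agent.P310
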