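import Vale.Agent.P310.H44.Horn
import Vale.Agent.P310.H630.Rel

/-!
P310, Theorem A, Spoiler half: if the goal of the row Horn system is derivable, then the graph of
the parity system (all right hand sides zero) and its twisted version are not `k`-WL equivalent.
-/

namespace Vale.Agent.P310

open Function Finset

namespace SlotSys

section val
variable {V E Sl : Type} (S : SlotSys V E Sl)

open Classical in
/-- the value that `α` gives to the variable `v` of the constraint `e` -/
noncomputable def spVal (e : E) (α : Sl → ZMod 2) (v : V) : ZMod 2 :=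
  ∑ t ∈ (S.act e).filter fun t => S.sv e t = v, α t

theorem sp_val_sv {e : E} {α : Sl → ZMod 2} {t : Sl} (ht : t ∈ S.act e) :
    S.spVal e α (S.sv e t) = α t := by
  classical
  unfold spVal
  have : (S.act e).filter (fun t' => S.sv e t' = S.sv e t) = {t} := by
    ext t'
    rw [mem_filter, mem_singleton]
    constructor
    · rintro ⟨h1, h2⟩
      exact S.inj e h1 ht h2
    · rintro rfl
      exact ⟨ht, rfl⟩
  rw [this, sum_singleton]

theorem sp_sum_val (e : E) (α : Sl → ZMod 2) :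
    ∑ v ∈ S.vars e, S.spVal e α v = ∑ t ∈ S.act e, α t := by
  classical
  unfold vars
  rw [sum_image (fun a ha b hb h => S.inj e ha hb h)]
  exact sum_congr rfl fun t ht => S.sp_val_sv ht

theorem sp_ok_iff (p : E → ZMod 2) (e : E) (α : Sl → ZMod 2) :
    S.Ok p e α ↔ ∑ v ∈ S.vars e, S.spVal e α v = p e := by
  rw [sp_sum_val]; rfl

theorem sp_mem_vars {e : E} {v : V} : v ∈ S.vars e ↔ ∃ t ∈ S.act e, S.sv e t = v := by
  classical
  unfold vars
  rw [mem_image]

theorem sp_inc_iff (p : E → ZMod 2) (v : V) (s : ZMod 2) (e : E) (α : Sl → ZMod 2) :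
    S.Inc p v s e α ↔ S.Ok p e α ∧ v ∈ S.vars e ∧ S.spVal e α v = s := by
  unfold Inc
  rw [sp_mem_vars]
  constructor
  · rintro ⟨h, t, ht, rfl, h2⟩
    exact ⟨h, ⟨t, ht, rfl⟩, (S.sp_val_sv ht).trans h2⟩
  · rintro ⟨h, ⟨t, ht, rfl⟩, h2⟩
    exact ⟨h, t, ht, rfl, (S.sp_val_sv ht).symm.trans h2⟩

/-- the assignment with given values -/
theorem sp_val_comp (f : V → ZMod 2) {e : E} {v : V} (hv : v ∈ S.vars e) :
    S.spVal e (fun t => f (S.sv e t)) v = f v := by
  obtain ⟨t, ht, rfl⟩ := S.sp_mem_vars.1 hv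
  rw [S.sp_val_sv ht]

theorem sp_ok_comp (p : E → ZMod 2) (f : V → ZMod 2) (e : E) :
    S.Ok p e (fun t => f (S.sv e t)) ↔ ∑ v ∈ S.vars e, f v = p e := by
  rw [sp_ok_iff, sum_congr rfl fun v hv => S.sp_val_comp f hv]

end val

section replace
variable {V E Sl : Type} [Fintype V] [Fintype E] [Fintype Sl] [DecidableEq V] [DecidableEq E]
  [DecidableEq Sl] {S : SlotSys V E Sl} {p p' : E → ZMod 2} {cnt : V ⊕ E → ℕ} {L k : ℕ}

/-- replace all entries of a tuple, one after the other -/
theorem Rel.replace (hk : 2 ≤ k) (hc : CntOk V E Sl cnt L) {x x' : Fin k → BaseV V E Sl}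
    (h : S.Rel p p' cnt L k x x') (u : Fin k → BaseV V E Sl) (hu : ∀ r, S.Live p (u r)) :
    ∃ u' : Fin k → BaseV V E Sl, S.Rel p p' cnt L k u u' ∧ ∀ r, S.Live p' (u' r) ∧
      item (u' r) = item (u r) ∧ (S.BaseAdj p (u r) (x r) ↔ S.BaseAdj p' (u' r) (x' r)) := by
  classical
  have key : ∀ A : Finset (Fin k), ∃ u' : Fin k → BaseV V E Sl,
      S.Rel p p' cnt L k (fun r => if r ∈ A then u r else x r)
        (fun r => if r ∈ A then u' r else x' r) ∧ ∀ r ∈ A, S.Live p' (u' r) ∧
      item (u' r) = item (u r) ∧ (S.BaseAdj p (u r) (x r) ↔ S.BaseAdj p' (u' r) (x' r)) := by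
    intro A
    induction A using Finset.induction_on with
    | empty => exact ⟨x', by simpa using h, by simp⟩
    | insert a A ha ih =>
      obtain ⟨u', hR, hA⟩ := ih
      obtain ⟨w, h1, h2, h3, h4⟩ := Rel.forth hk hc hR (hu a)
      refine ⟨update u' a w, ?_, ?_⟩
      · have h5 := h3 a
        have e1 : update (fun r => if r ∈ A then u r else x r) a (u a) =
            fun r => if r ∈ insert a A then u r else x r := by
          funext r
          by_cases hr : r = a
          · subst hr; simp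
          · simp [hr]
        have e2 : update (fun r => if r ∈ A then u' r else x' r) a w =
            fun r => if r ∈ insert a A then update u' a w r else x' r := by
          funext r
          by_cases hr : r = a
          · subst hr; simp
          · simp [hr]
        rw [e1, e2] at h5
        exact h5
      · intro r hr
        by_cases hra : r = a
        · subst hra
          have h5 := h4 r
          rw [if_neg ha, if_neg ha] at h5
          rw [update_self]
          exact ⟨h1, h2, h5⟩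
        · rw [update_of_ne hra]
          exact hA r ((mem_insert.1 hr).resolve_left hra)
  obtain ⟨u', h1, h2⟩ := key univ
  refine ⟨u', by simpa using h1, fun r => h2 r (mem_univ r)⟩

end replace

end SlotSys

section sums
variable {Q C R M' : Type} {h k q : ℕ} (H : RowHorn Q C R h) (P : Rows k h) (D : Design R M' q)
  (m0 : Bit R M')

theorem sp_sum_vars_row (ρ : R) (m : Bit R M') (r : Fin k) (a : Q)
    (g : Var Q C R M' k → ZMod 2) :
    ∑ v ∈ (Con.row ρ m r a).vars H P D m0, g v =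
      (∑ c ∈ H.prem ρ ×ˢ D.S m, g ((c.1, (ρ, c.2)), r, H.phi ρ c.1 (P.π r) a)) +
        g ((H.concl ρ, m), r, H.psi ρ (P.π r) a) := by
  classical
  unfold Con.vars
  rw [sum_union, sum_singleton, sum_image]
  · rintro ⟨c, l⟩ _ ⟨c', l'⟩ _ hcc
    simp only [Prod.mk.injEq, true_and] at hcc
    obtain ⟨⟨rfl, rfl⟩, _⟩ := hcc
    rfl
  · rw [disjoint_singleton_right, mem_image]
    rintro ⟨⟨c, l⟩, hc, hcc⟩
    simp only [Prod.mk.injEq] at hcc
    obtain ⟨⟨rfl, _⟩, _⟩ := hcc
    exact H.concl_notin ρ (mem_product.1 hc).1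

theorem sp_sum_vars_cross (m : Bit R M') (g : Var Q C R M' k → ZMod 2) :
    ∑ v ∈ (Con.cross m).vars H P D m0, g v = ∑ r, g ((H.c0, m), r, H.x0 (P.π r)) := by
  classical
  unfold Con.vars
  rw [sum_image]
  intro r _ r' _ hr
  simp only [Prod.mk.injEq, true_and] at hr
  exact hr.1

theorem sp_sum_vars_goal (g : Var Q C R M' k → ZMod 2) :
    ∑ v ∈ (Con.goal : Con Q R M' k).vars H P D m0, g v =
      ∑ r, g ((H.cg, m0), r, H.xg (P.π r)) := by
  classical
  unfold Con.vars
  rw [sum_image]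
  intro r _ r' _ hr
  simp only [Prod.mk.injEq, true_and] at hr
  exact hr.1

theorem sp_mem_vars_cross (m : Bit R M') (r : Fin k) :
    ((H.c0, m), r, H.x0 (P.π r)) ∈ (Con.cross m : Con Q R M' k).vars H P D m0 := by
  classical
  unfold Con.vars
  exact mem_image_of_mem _ (mem_univ r)

theorem sp_mem_vars_goal (r : Fin k) :
    ((H.cg, m0), r, H.xg (P.π r)) ∈ (Con.goal : Con Q R M' k).vars H P D m0 := by
  classical
  unfold Con.vars
  exact mem_image_of_mem _ (mem_univ r)

theorem sp_mem_vars_row (ρ : R) (m : Bit R M') (r : Fin k) (a : Q) {c : C} {l : M'}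
    (hc : c ∈ H.prem ρ) (hl : l ∈ D.S m) :
    ((c, (ρ, l)), r, H.phi ρ c (P.π r) a) ∈ (Con.row ρ m r a).vars H P D m0 := by
  classical
  unfold Con.vars
  refine mem_union_left _ (mem_image.2 ⟨(c, l), mem_product.2 ⟨hc, hl⟩, rfl⟩)

theorem sp_mem_vars_row' (ρ : R) (m : Bit R M') (r : Fin k) (a : Q) :
    ((H.concl ρ, m), r, H.psi ρ (P.π r) a) ∈ (Con.row ρ m r a).vars H P D m0 := by
  classical
  unfold Con.vars
  exact mem_union_right _ (mem_singleton_self _)

end sums

theorem sp_zmod2_add_self (a : ZMod 2) : a + a = 0 := CharTwo.add_self_eq_zero a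

theorem sp_zmod2_cases (a : ZMod 2) : a = 0 ∨ a = 1 := by
  revert a; decide

section main
variable {Q C R M' E Sl : Type} {h k q : ℕ} [Fintype (Var Q C R M' k)]
  [DecidableEq (Var Q C R M' k)] [Fintype E] [Fintype Sl] [DecidableEq E] [DecidableEq Sl]
  {H : RowHorn Q C R h} {P : Rows k h} {D : Design R M' q} {m0 : Bit R M'}
  {S : SlotSys (Var Q C R M' k) E Sl} {p p' : E → ZMod 2}
  {cnt : Var Q C R M' k ⊕ E → ℕ} {L : ℕ}

/-- a base vertex with the item of a variable -/
theorem sp_eq_inl_of_item {V E Sl : Type} {u : BaseV V E Sl} {v : V}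
    (hu : SlotSys.item u = Sum.inl v) : ∃ s, u = Sum.inl (v, s) := by
  rcases u with ⟨w, s⟩ | ⟨e, α⟩
  · simp only [SlotSys.item, Sum.inl.injEq] at hu
    exact ⟨s, by rw [hu]⟩
  · simp [SlotSys.item] at hu

/-- a base vertex with the item of a constraint -/
theorem sp_eq_inr_of_item {V E Sl : Type} {u : BaseV V E Sl} {e : E}
    (hu : SlotSys.item u = Sum.inr e) : ∃ α, u = Sum.inr (e, α) := by
  rcases u with ⟨w, s⟩ | ⟨e', α⟩
  · simp [SlotSys.item] at hu
  · simp only [SlotSys.item, Sum.inr.injEq] at hu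
    exact ⟨α, by rw [hu]⟩

/-- In related positions on the variables of a derivable fact, the two sums of values agree. -/
theorem der_sum_eq (hk : 2 ≤ k) (hq : 1 ≤ q)
    (hcon : ∀ c : Con Q R M' k, c.Valid H P →
      ∃ e, S.vars e = c.vars H P D m0 ∧ p e = 0 ∧ p' e = c.par)
    (hc : CntOk (Var Q C R M' k) E Sl cnt L) {c : C} {x : Fin h → Q} (hder : H.Der c x)
    (m : Bit R M') (s s' : Fin k → ZMod 2)
    (hR : S.Rel p p' cnt L k (fun r => Sum.inl (((c, m), r, x (P.π r)), s r))
      (fun r => Sum.inl (((c, m), r, x (P.π r)), s' r))) :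
    ∑ r, s r = ∑ r, s' r := by
  classical
  induction hder generalizing m s s' with
  | base =>
    obtain ⟨e, he, hp, hp'⟩ := hcon (.cross m) trivial
    have hr0 : 0 < k := by omega
    let r0 : Fin k := ⟨0, hr0⟩
    let δ : ZMod 2 := ∑ r, s r
    let f : Var Q C R M' k → ZMod 2 := fun v => s v.2.1 + if v.2.1 = r0 then δ else 0
    have hf : ∑ v ∈ S.vars e, f v = p e := by
      rw [he, sp_sum_vars_cross, hp]
      simp only [f]
      rw [sum_add_distrib, sum_ite_eq' univ r0, if_pos (mem_univ _)]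
      exact sp_zmod2_add_self _
    have hok := (S.sp_ok_comp p f e).2 hf
    obtain ⟨u', h1, h2, _, h4⟩ := SlotSys.Rel.forth hk hc hR
      (u := Sum.inr (e, fun t => f (S.sv e t))) hok
    obtain ⟨α', rfl⟩ := sp_eq_inr_of_item h2
    have h5 : ∀ r, S.spVal e α' ((H.c0, m), r, H.x0 (P.π r)) = s' r + if r = r0 then δ else 0 := by
      intro r
      have hmem : ((H.c0, m), r, H.x0 (P.π r)) ∈ S.vars e := by
        rw [he]; exact sp_mem_vars_cross H P D m0 m r
      have h6 : S.Inc p ((H.c0, m), r, H.x0 (P.π r)) (s r) e (fun t => f (S.sv e t)) ↔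
        S.Inc p' ((H.c0, m), r, H.x0 (P.π r)) (s' r) e α' := h4 r
      rw [S.sp_inc_iff, S.sp_inc_iff, S.sp_val_comp f hmem] at h6
      have h7 : f ((H.c0, m), r, H.x0 (P.π r)) = s r ↔
          S.spVal e α' ((H.c0, m), r, H.x0 (P.π r)) = s' r :=
        ⟨fun h => (h6.1 ⟨hok, hmem, h⟩).2.2, fun h => (h6.2 ⟨h1, hmem, h⟩).2.2⟩
      simp only [f] at h7
      rcases sp_zmod2_cases (if r = r0 then δ else 0) with h8 | h8
      · rw [h8] at h7 ⊢
        rw [add_zero]
        exact h7.1 (add_zero _)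
      · rw [h8] at h7 ⊢
        have h9 : ¬ (s r + 1 = s r) := by
          intro h; simp at h
        have h10 : S.spVal e α' ((H.c0, m), r, H.x0 (P.π r)) ≠ s' r := fun h => h9 (h7.2 h)
        generalize S.spVal e α' ((H.c0, m), r, H.x0 (P.π r)) = a at h10 ⊢
        generalize s' r = b at h10 ⊢
        revert a b; decide
    have h6 : ∑ v ∈ S.vars e, S.spVal e α' v = p' e := (S.sp_ok_iff p' e α').1 h1
    rw [he, sp_sum_vars_cross, hp'] at h6
    simp only [h5] at h6
    rw [sum_add_distrib, sum_ite_eq' univ r0, if_pos (mem_univ _)] at h6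
    have h7 : (∑ r, s' r) + ∑ r, s r = 0 := h6
    exact (CharTwo.add_eq_zero.1 h7).symm
  | step ρ x hx hp ih =>
    have hrow : ∀ r : Fin k, ∃ e, S.vars e = (Con.row ρ m r (x (P.π r))).vars H P D m0 ∧
        p e = 0 ∧ p' e = 0 := fun r => hcon (.row ρ m r (x (P.π r))) (hx (P.π r))
    choose e he hpe hpe' using hrow
    obtain ⟨c1, hc1⟩ := H.prem_ne ρ
    obtain ⟨l1, hl1⟩ : (D.S m).Nonempty := by
      rw [← card_pos, D.card_S]; omega
    -- phase A
    let f : Var Q C R M' k → ZMod 2 := fun v =>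
      (if v.1.1 = H.concl ρ then s v.2.1 else 0) + if v.1 = (c1, (ρ, l1)) then s v.2.1 else 0
    have hne : c1 ≠ H.concl ρ := fun h => H.concl_notin ρ (h ▸ hc1)
    have hf : ∀ r, ∑ v ∈ S.vars (e r), f v = p (e r) := by
      intro r
      rw [he, sp_sum_vars_row, hpe]
      have e1 : f ((H.concl ρ, m), r, H.psi ρ (P.π r) (x (P.π r))) = s r := by
        simp only [f, if_true, Prod.mk.injEq]
        rw [if_neg (by intro h; exact hne h.1.symm), add_zero]
      have e2 : ∑ c ∈ H.prem ρ ×ˢ D.S m,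
          f ((c.1, (ρ, c.2)), r, H.phi ρ c.1 (P.π r) (x (P.π r))) = s r := by
        rw [sum_eq_single (c1, l1)]
        · simp only [f, if_true]
          rw [if_neg hne, zero_add]
        · rintro ⟨c, l⟩ hcl hcl'
          have h1 : c ∈ H.prem ρ := (mem_product.1 hcl).1
          have h2 : c ≠ H.concl ρ := fun h => H.concl_notin ρ (h ▸ h1)
          simp only [f]
          rw [if_neg h2, if_neg, add_zero]
          simp only [Prod.mk.injEq, true_and]
          intro h
          exact hcl' (Prod.ext h.1 h.2)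
        · intro h
          exact absurd (mem_product.2 ⟨hc1, hl1⟩) h
      rw [e1, e2]
      exact sp_zmod2_add_self _
    have hok : ∀ r, S.Ok p (e r) (fun t => f (S.sv (e r) t)) := fun r =>
      (S.sp_ok_comp p f (e r)).2 (hf r)
    have hmem : ∀ r, ((H.concl ρ, m), r, H.psi ρ (P.π r) (x (P.π r))) ∈ S.vars (e r) := by
      intro r
      rw [he]
      exact sp_mem_vars_row' H P D m0 ρ m r _
    have hfc : ∀ r, f ((H.concl ρ, m), r, H.psi ρ (P.π r) (x (P.π r))) = s r := by
      intro r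
      simp only [f, if_true, Prod.mk.injEq]
      rw [if_neg (by intro h; exact hne h.1.symm), add_zero]
    obtain ⟨u', hA, hA'⟩ := SlotSys.Rel.replace hk hc hR
      (fun r => Sum.inr (e r, fun t => f (S.sv (e r) t))) hok
    have h1 : ∀ r, ∃ α', u' r = Sum.inr (e r, α') := fun r => sp_eq_inr_of_item (hA' r).2.1
    choose α' hα' using h1
    have h2 : u' = fun r => Sum.inr (e r, α' r) := funext hα'
    subst h2
    have hok' : ∀ r, S.Ok p' (e r) (α' r) := fun r => (hA' r).1
    have hval' : ∀ r, S.spVal (e r) (α' r) ((H.concl ρ, m), r, H.psi ρ (P.π r) (x (P.π r))) =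
        s' r := by
      intro r
      have h3 : S.Inc p ((H.concl ρ, m), r, H.psi ρ (P.π r) (x (P.π r))) (s r) (e r)
          (fun t => f (S.sv (e r) t)) ↔
        S.Inc p' ((H.concl ρ, m), r, H.psi ρ (P.π r) (x (P.π r))) (s' r) (e r) (α' r) :=
        (hA' r).2.2
      rw [S.sp_inc_iff, S.sp_inc_iff, S.sp_val_comp f (hmem r)] at h3
      exact (h3.1 ⟨hok r, hmem r, hfc r⟩).2.2
    -- phase B
    have hB : ∀ c ∈ H.prem ρ, ∀ l ∈ D.S m,
        ∑ r, f ((c, (ρ, l)), r, H.phi ρ c (P.π r) (x (P.π r))) =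
        ∑ r, S.spVal (e r) (α' r) ((c, (ρ, l)), r, H.phi ρ c (P.π r) (x (P.π r))) := by
      intro c hcp l hl
      have hm : ∀ r, ((c, (ρ, l)), r, H.phi ρ c (P.π r) (x (P.π r))) ∈ S.vars (e r) := by
        intro r
        rw [he]
        exact sp_mem_vars_row H P D m0 ρ m r _ hcp hl
      obtain ⟨w, hW, hW'⟩ := SlotSys.Rel.replace hk hc hA
        (fun r => Sum.inl (((c, (ρ, l)), r, H.phi ρ c (P.π r) (x (P.π r))),
          f ((c, (ρ, l)), r, H.phi ρ c (P.π r) (x (P.π r))))) (fun r => trivial)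
      have h1 : ∀ r, ∃ t, w r = Sum.inl (((c, (ρ, l)), r, H.phi ρ c (P.π r) (x (P.π r))), t) :=
        fun r => sp_eq_inl_of_item (hW' r).2.1
      choose t ht using h1
      have h2 : w = fun r => Sum.inl (((c, (ρ, l)), r, H.phi ρ c (P.π r) (x (P.π r))), t r) :=
        funext ht
      subst h2
      have h3 : ∀ r, S.spVal (e r) (α' r) ((c, (ρ, l)), r, H.phi ρ c (P.π r) (x (P.π r))) = t r := by
        intro r
        have h4 : S.Inc p ((c, (ρ, l)), r, H.phi ρ c (P.π r) (x (P.π r)))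
            (f ((c, (ρ, l)), r, H.phi ρ c (P.π r) (x (P.π r)))) (e r)
            (fun t => f (S.sv (e r) t)) ↔
          S.Inc p' ((c, (ρ, l)), r, H.phi ρ c (P.π r) (x (P.π r))) (t r) (e r) (α' r) :=
          (hW' r).2.2
        rw [S.sp_inc_iff, S.sp_inc_iff, S.sp_val_comp f (hm r)] at h4
        exact (h4.1 ⟨hok r, hm r, rfl⟩).2.2
      have h5 := ih c hcp (ρ, l) _ t hW
      rw [h5]
      exact sum_congr rfl fun r _ => (h3 r).symm
    have g1 : ∀ r, (∑ c ∈ H.prem ρ ×ˢ D.S m,
        f ((c.1, (ρ, c.2)), r, H.phi ρ c.1 (P.π r) (x (P.π r)))) = s r := by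
      intro r
      have := hf r
      rw [he, sp_sum_vars_row, hpe, hfc] at this
      exact CharTwo.add_eq_zero.1 this
    have g2 : ∀ r, (∑ c ∈ H.prem ρ ×ˢ D.S m,
        S.spVal (e r) (α' r) ((c.1, (ρ, c.2)), r, H.phi ρ c.1 (P.π r) (x (P.π r)))) = s' r := by
      intro r
      have := (S.sp_ok_iff p' (e r) (α' r)).1 (hok' r)
      rw [he, sp_sum_vars_row, hpe', hval'] at this
      exact CharTwo.add_eq_zero.1 this
    rw [← sum_congr rfl fun r _ => g1 r, ← sum_congr rfl fun r _ => g2 r, sum_comm,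
      sum_comm (s := univ) (t := H.prem ρ ×ˢ D.S m)]
    exact sum_congr rfl fun c hc' =>
      hB c.1 (mem_product.1 hc').1 c.2 (mem_product.1 hc').2

/-- **Theorem A, Spoiler half.** If the goal is derivable, then the two graphs are not `k`-WL
equivalent. -/
theorem spoiler (hk : 2 ≤ k) (hq : 1 ≤ q)
    (hcon : ∀ c : Con Q R M' k, c.Valid H P →
      ∃ e, S.vars e = c.vars H P D m0 ∧ p e = 0 ∧ p' e = c.par)
    (hc : CntOk (Var Q C R M' k) E Sl cnt L) (hder : H.Der H.cg H.xg) :
    ¬ WLEquiv k (S.graph p cnt L) (S.graph p' cnt L) := by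
  classical
  intro hWL
  obtain ⟨x', hx'⟩ := SlotSys.Rel.total hk hc hWL
    (fun r => Sum.inl (((H.cg, m0), r, H.xg (P.π r)), 0)) (fun r => trivial)
  have h1 : ∀ r, ∃ t, x' r = Sum.inl (((H.cg, m0), r, H.xg (P.π r)), t) := fun r =>
    sp_eq_inl_of_item (SlotSys.Rel.live hk hc hx' r trivial).2
  choose s' hs' using h1
  have h2 : x' = fun r => Sum.inl (((H.cg, m0), r, H.xg (P.π r)), s' r) := funext hs'
  subst h2
  have h3 := der_sum_eq hk hq hcon hc hder m0 (fun _ => 0) s' hx'
  rw [sum_const_zero] at h3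
  obtain ⟨e, he, hp, hp'⟩ := hcon .goal trivial
  have hok : S.Ok p e (fun _ => 0) := by
    unfold SlotSys.Ok
    rw [sum_const_zero, hp]
  obtain ⟨u', h4, h5, _, h6⟩ := SlotSys.Rel.forth hk hc hx' (u := Sum.inr (e, fun _ => 0)) hok
  obtain ⟨α', rfl⟩ := sp_eq_inr_of_item h5
  have h7 : ∀ r, S.spVal e α' ((H.cg, m0), r, H.xg (P.π r)) = s' r := by
    intro r
    have hmem : ((H.cg, m0), r, H.xg (P.π r)) ∈ S.vars e := by
      rw [he]; exact sp_mem_vars_goal H P D m0 r
    have h8 : S.Inc p ((H.cg, m0), r, H.xg (P.π r)) 0 e (fun _ => 0) ↔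
      S.Inc p' ((H.cg, m0), r, H.xg (P.π r)) (s' r) e α' := h6 r
    rw [S.sp_inc_iff, S.sp_inc_iff] at h8
    refine (h8.1 ⟨hok, hmem, ?_⟩).2.2
    unfold SlotSys.spVal
    exact sum_const_zero
  have h8 : ∑ v ∈ S.vars e, S.spVal e α' v = p' e := (S.sp_ok_iff p' e α').1 h4
  rw [he, sp_sum_vars_goal, hp'] at h8
  simp only [h7] at h8
  rw [← h3] at h8
  exact absurd h8 (show ¬ ((0 : ZMod 2) = 1) by decide)

end main

end Vale.Agent.P310
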