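import Vale.Agent.P310.HSys
import Vale.Agent.P310.H630.Spoiler
import Vale.Agent.P310.H630.Misc

/-!
P310, Theorem A, Spoiler half, for the slot system of Horn data.
-/

namespace Vale.Agent.P310

namespace HData

variable {D : HData} {k : ℕ}

/-- **Theorem A, Spoiler half**, for Horn data. -/
theorem spoiler (hD : D.Ok) (hk : 0 < k) (hk2 : 2 * D.h ≤ k) [Fintype (D.HVar k)]
    [DecidableEq (D.HVar k)] [Fintype (D.HCon k)] [DecidableEq (D.HCon k)]
    {cnt : D.HVar k ⊕ D.HCon k → ℕ} {L : ℕ} {p p' : D.HCon k → ZMod 2}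
    (hp : ∀ e, p e = 0) (hp' : ∀ e, p' e = e.par)
    (hc : CntOk (D.HVar k) (D.HCon k) (HSl k) cnt L) (hder : D.NDer 1 fun _ => 0) :
    ¬ WLEquiv k ((hsys hD hk).graph p cnt L) ((hsys hD hk).graph p' cnt L) := by
  have hh := hD.hh
  refine Vale.Agent.P310.spoiler (H := D.toHorn hD) (P := modRows hD.hh hk2)
    (D := lineDesign D.nR (k + 3)) (m0 := m0 hD k) (by omega) (by omega : 1 ≤ k + 3)
    (fun c hc' => ⟨c, vars_eq hD hk hk2 c hc', hp c, hp' c⟩) hc ?_
  exact (D.der_iff hD _ _).2 hder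

end HData

end Vale.Agent.P310
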