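import Vale.Agent.P310.NumDefs

/-!
P310: polynomial bounds for the number of vertices of the graphs.
-/

namespace Vale.Agent.P310

/-- `f` is bounded by a constant times `b ^ e` -/
def PolyB {ι : Type} (b f : ι → ℕ) (e : ℕ) : Prop := ∃ C, ∀ i, f i ≤ C * b i ^ e

namespace PolyB

variable {ι : Type} {b f g : ι → ℕ} {e e' : ℕ}

theorem const (c : ℕ) : PolyB b (fun _ => c) 0 := ⟨c, fun i => by simp⟩

theorem self : PolyB b b 1 := ⟨1, fun i => by simp⟩

theorem mul (hf : PolyB b f e) (hg : PolyB b g e') : PolyB b (fun i => f i * g i) (e + e') := by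
  obtain ⟨C, hC⟩ := hf
  obtain ⟨C', hC'⟩ := hg
  refine ⟨C * C', fun i => (Nat.mul_le_mul (hC i) (hC' i)).trans (le_of_eq ?_)⟩
  ring

theorem mono (hb : ∀ i, 1 ≤ b i) (hf : PolyB b f e) (h : e ≤ e') : PolyB b f e' := by
  obtain ⟨C, hC⟩ := hf
  exact ⟨C, fun i => (hC i).trans (Nat.mul_le_mul_left _ (Nat.pow_le_pow_right (hb i) h))⟩

theorem add (hf : PolyB b f e) (hg : PolyB b g e) : PolyB b (fun i => f i + g i) e := by
  obtain ⟨C, hC⟩ := hf
  obtain ⟨C', hC'⟩ := hg
  exact ⟨C + C', fun i => by have := Nat.add_le_add (hC i) (hC' i); rwa [← add_mul] at this⟩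

theorem add' (hb : ∀ i, 1 ≤ b i) (hf : PolyB b f e) (hg : PolyB b g e') (h : e' ≤ e) :
    PolyB b (fun i => f i + g i) e := hf.add (hg.mono hb h)

theorem of_le (hg : PolyB b g e) (h : ∀ i, f i ≤ g i) : PolyB b f e := by
  obtain ⟨C, hC⟩ := hg
  exact ⟨C, fun i => (h i).trans (hC i)⟩

end PolyB

namespace HData

/-- Polynomial bound for the number of vertices. -/
theorem nTot_polyB {ι : Type} (b : ι → ℕ) (hb : ∀ i, 1 ≤ b i) (D : ι → HData)
    (hDb : ∀ i, (D i).b = b i) (hR : PolyB b (fun i => (D i).nR) 2)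
    (hC : PolyB b (fun i => (D i).nC) 2) (k F : ℕ) :
    PolyB b (fun i => (D i).nTot k F) 21 := by
  have hB : PolyB b (fun i => (D i).nB k) 2 := by
    have := (PolyB.const (b := b) ((k + 3) ^ 4)).mul hR
    rw [zero_add] at this
    refine this.of_le fun i => le_of_eq ?_
    simp only [nB, lineB, lineY]
    ring
  have hM : PolyB b (fun i => (D i).nM k) 4 := hR.mul hB
  have hkb : PolyB b (fun i => k * (D i).b) 1 := by
    have := (PolyB.const (b := b) k).mul PolyB.self
    rw [zero_add] at this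
    refine this.of_le fun i => ?_
    rw [hDb]
  have hV : PolyB b (fun i => (D i).nV k) 7 := (hC.mul hM).mul hkb
  have hRow : PolyB b (fun i => (D i).nRow k) 7 := (hR.mul hM).mul hkb
  have h1 : PolyB b (fun _ => 1) 0 := PolyB.const 1
  have hE : PolyB b (fun i => (D i).nE k) 7 :=
    hRow.add' hb (hM.add' hb h1 (by norm_num)) (by norm_num)
  have hU : PolyB b (fun i => (D i).nU k F) 7 :=
    (hV.mul (PolyB.const 2)).add (hE.mul (PolyB.const F))
  have hbig : PolyB b (fun i => (D i).bigB k F) 7 := hU.add' hb h1 (by norm_num)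
  have hL : PolyB b (fun i => (D i).nL k F) 14 := (hV.add hE).mul hbig
  exact hU.mul (hL.add' hb h1 (by norm_num))

/-- The number of vertices is at least the number of symbols. -/
theorem le_nTot (D : HData) (hR : 0 < D.nR) (hC : 0 < D.nC) {k : ℕ} (hk : 0 < k) (F : ℕ) :
    D.b ≤ D.nTot k F := by
  have hB : 1 ≤ D.nB k := by
    unfold nB lineB lineY
    exact Nat.succ_le_of_lt (by positivity)
  have hM : 1 ≤ D.nM k := Nat.mul_le_mul hR hB
  have h1 : D.b ≤ D.nV k := by
    have h2 : 1 * 1 * (1 * D.b) ≤ D.nC * D.nM k * (k * D.b) :=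
      Nat.mul_le_mul (Nat.mul_le_mul hC hM) (Nat.mul_le_mul_right _ hk)
    simpa [nV] using h2
  have h2 : D.nV k ≤ D.nU k F := by unfold nU; omega
  have h3 : D.nU k F * 1 ≤ D.nTot k F := Nat.mul_le_mul_left _ (by omega)
  omega

end HData

end Vale.Agent.P310
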