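import Vale.Agent.P310.H260.Gen
import Vale.Agent.P310.H630.Size

/-!
P310: the size of the Horn data of a machine.
-/

namespace Vale.Agent.P310

namespace Gen

/-- the number of rules of an action -/
theorem length_actRules_le (b g s rd a : ℕ) (act : FAct) :
    (actRules b g s rd a act).length ≤ 3 + 2 * g + b * b * (g + 1) := by
  have h1 : ∀ i d, (cellRules b g s a act.1 act.2.1 i d).length ≤ g + 1 := by
    intro i d
    unfold cellRules
    split_ifs <;> simp
  have h2 : ((List.range b).flatMap fun i => (List.range b).flatMap fun d =>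
      cellRules b g s a act.1 act.2.1 i d).length ≤ b * (b * (g + 1)) := by
    rw [List.length_flatMap]
    refine (List.sum_le_card_nsmul _ (b * (g + 1)) ?_).trans (by simp)
    intro x hx
    obtain ⟨i, _, rfl⟩ := List.mem_map.1 hx
    rw [List.length_flatMap]
    refine (List.sum_le_card_nsmul _ (g + 1) ?_).trans (by simp)
    intro x hx
    obtain ⟨d, _, rfl⟩ := List.mem_map.1 hx
    exact h1 i d
  unfold actRules
  simp only [List.length_append, List.length_map, List.length_range, List.length_cons,
    List.length_nil]
  have h3 : (if act.1 = 1 then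
    [([tFire b s a], tCellN b act.2.1 (act.2.2.1 + 1), keepL b g ++ zeroL g)]
      else ([] : List HRule)).length ≤ 1 := by
    split_ifs <;> simp
  have h4 : b * (b * (g + 1)) = b * b * (g + 1) := by ring
  omega

/-- the number of actions of a table -/
def acts (t : FTable) : ℕ := ((List.range t.length).map fun s => (t.getD s (0, [])).2.length).sum

theorem length_tabRules_le (t : FTable) (b g : ℕ) :
    (tabRules t b g).length ≤ acts t * (3 + 2 * g + b * b * (g + 1)) := by
  unfold tabRules acts
  rw [List.length_flatMap]
  generalize List.range t.length = l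
  induction l with
  | nil => simp
  | cons s l ih =>
    simp only [List.map_cons, List.sum_cons, add_mul]
    refine Nat.add_le_add ?_ ih
    rw [List.length_flatMap]
    refine (List.sum_le_card_nsmul _ (3 + 2 * g + b * b * (g + 1)) ?_).trans (by simp)
    intro x hx
    obtain ⟨a, _, rfl⟩ := List.mem_map.1 hx
    exact length_actRules_le ..

theorem length_nextRules (b g : ℕ) : (nextRules b g).length = b * (b * g) := by
  unfold nextRules
  simp [List.length_flatMap]

/-- The number of rules depends on the length of the input only. -/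
theorem length_rules_congr (t : FTable) {w w' : List Bool} (h : w.length = w'.length) (b g : ℕ) :
    (rules t w b g).length = (rules t w' b g).length := by
  simp only [rules, inputRules, startRules, List.length_cons, List.length_append, List.length_map,
    List.length_range, h]

theorem length_rules_le (t : FTable) (w : List Bool) (b g : ℕ) :
    (rules t w b g).length ≤ w.length + (4 + 2 * g + b) +
      acts t * (3 + 2 * g + b * b * (g + 1)) + b * (b * g) := by
  simp only [rules, inputRules, startRules, List.length_cons, List.length_append, List.length_map,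
    List.length_range, length_nextRules, List.length_nil]
  have := length_tabRules_le t b g
  omega

theorem length_rules_pos (t : FTable) (w : List Bool) (b g : ℕ) : 0 < (rules t w b g).length := by
  simp [rules]

/-- The number of rules is at most a constant times `b ^ 2`. -/
theorem exists_length_rules_le (t : FTable) (g : ℕ) :
    ∃ C, ∀ b, 1 ≤ b → ∀ w : List Bool, w.length ≤ b → (rules t w b g).length ≤ C * b ^ 2 := by
  refine ⟨1 + (4 + 2 * g + 1) + acts t * (3 + 2 * g + (g + 1)) + g, fun b hb w hw => ?_⟩
  have h1 : 1 ≤ b ^ 2 := Nat.one_le_pow _ _ hb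
  have h2 : b ≤ b ^ 2 := by nlinarith
  have h3 := length_rules_le t w b g
  have h4 : acts t * (3 + 2 * g + b * b * (g + 1)) ≤
      acts t * (3 + 2 * g + (g + 1)) * b ^ 2 := by
    rw [mul_assoc (acts t)]
    refine Nat.mul_le_mul_left _ ?_
    nlinarith
  have h5 : b * (b * g) = g * b ^ 2 := by ring
  have h6 : w.length + (4 + 2 * g + b) ≤ (1 + (4 + 2 * g + 1)) * b ^ 2 := by nlinarith
  rw [h5] at h3
  have h7 : (1 + (4 + 2 * g + 1) + acts t * (3 + 2 * g + (g + 1)) + g) * b ^ 2 =
      (1 + (4 + 2 * g + 1)) * b ^ 2 + acts t * (3 + 2 * g + (g + 1)) * b ^ 2 + g * b ^ 2 := by ring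
  omega

/-- **Size bound.** For a fixed table, a fixed number of digits and a fixed dimension, the number
of vertices is at most a constant times `b ^ 21`. -/
theorem exists_nTot_le (t : FTable) (g k F : ℕ) :
    ∃ C, ∀ b, 1 ≤ b → ∀ w : List Bool, w.length ≤ b → (data t w b g).nTot k F ≤ C * b ^ 21 := by
  obtain ⟨C, hC⟩ := exists_length_rules_le t g
  let ι := {x : ℕ × List Bool // 1 ≤ x.1 ∧ x.2.length ≤ x.1}
  obtain ⟨C', h⟩ := HData.nTot_polyB (ι := ι) (fun i => i.1.1) (fun i => i.2.1)
    (fun i => data t i.1.2 i.1.1 g) (fun i => rfl)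
    ⟨C, fun i => hC i.1.1 i.2.1 i.1.2 i.2.2⟩
    ⟨10, fun i => by
      show 2 + 8 * (i.1.1 * i.1.1) ≤ 10 * i.1.1 ^ 2
      have : 1 ≤ i.1.1 ^ 2 := Nat.one_le_pow _ _ i.2.1
      nlinarith⟩ k F
  exact ⟨C', fun b hb w hw => h ⟨(b, w), hb, hw⟩⟩

/-- The number of vertices depends on the length of the input only. -/
theorem nTot_congr (t : FTable) {w w' : List Bool} (h : w.length = w'.length) (b g k F : ℕ) :
    (data t w b g).nTot k F = (data t w' b g).nTot k F := by
  have h1 : (data t w b g).nR = (data t w' b g).nR := length_rules_congr t h b g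
  have h2 : (data t w b g).nB k = (data t w' b g).nB k := by
    simp only [HData.nB, h1]
  have h3 : (data t w b g).nM k = (data t w' b g).nM k := by
    simp only [HData.nM, h1, h2]
  have h4 : (data t w b g).nV k = (data t w' b g).nV k := by
    simp only [HData.nV, h3]; rfl
  have h5 : (data t w b g).nRow k = (data t w' b g).nRow k := by
    simp only [HData.nRow, h1, h3]; rfl
  have h6 : (data t w b g).nE k = (data t w' b g).nE k := by
    simp only [HData.nE, h3, h5]
  have h7 : (data t w b g).nU k F = (data t w' b g).nU k F := by
    simp only [HData.nU, h4, h6]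
  have h8 : (data t w b g).nL k F = (data t w' b g).nL k F := by
    simp only [HData.nL, HData.bigB, h4, h6, h7]
  simp only [HData.nTot, h7, h8]

/-- There are at least `b` vertices. -/
theorem le_nTot (t : FTable) (w : List Bool) (b g : ℕ) {k : ℕ} (hk : 0 < k) (F : ℕ) :
    b ≤ (data t w b g).nTot k F :=
  HData.le_nTot (data t w b g) (length_rules_pos t w b g) (by show 0 < 2 + 8 * (b * b); omega) hk F

end Gen

end Vale.Agent.P310
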