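import Vale.Agent.P310.H44.Horn

/-!
P310, part P6: the line design over the integers.  With `Y = nR * q ^ 2` and `B = q * (q * Y)` one has
`nR * B = Y ^ 2`, so that the bits `(ρ, b)`, `ρ < nR`, `b < B`, are the affine functions
`l ↦ α * l + β`, `α, β < Y`; the line of a bit is the graph of this function on `l < q`.
-/

namespace Vale.Agent.P310

/-- the number of slopes -/
def lineY (nR q : ℕ) : ℕ := nR * q ^ 2

/-- the number of points of the design -/
def lineB (nR q : ℕ) : ℕ := q * (q * lineY nR q)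

/-- the number of the affine function of the bit `(ρ, b)` -/
def lineIdx (nR q ρ b : ℕ) : ℕ := ρ * lineB nR q + b

/-- the `l`-th point on the line of the bit `(ρ, b)` -/
def lineAt (nR q ρ b l : ℕ) : ℕ :=
  l * (q * lineY nR q) +
    (lineIdx nR q ρ b / lineY nR q * l + lineIdx nR q ρ b % lineY nR q)

theorem lineIdx_lt {nR q ρ b : ℕ} (hρ : ρ < nR) (hb : b < lineB nR q) :
    lineIdx nR q ρ b < lineY nR q * lineY nR q := by
  have h1 : lineY nR q * lineY nR q = nR * lineB nR q := by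
    simp only [lineY, lineB]; ring
  rw [h1, lineIdx]
  calc ρ * lineB nR q + b < ρ * lineB nR q + lineB nR q := by omega
    _ = (ρ + 1) * lineB nR q := by ring
    _ ≤ nR * lineB nR q := Nat.mul_le_mul_right _ hρ

theorem lineY_pos {nR q ρ b : ℕ} (hρ : ρ < nR) (hb : b < lineB nR q) : 0 < lineY nR q := by
  have := lineIdx_lt hρ hb
  by_contra h
  have h0 : lineY nR q = 0 := by omega
  rw [h0] at this
  omega

/-- the value of the affine function is small -/
theorem lineVal_lt {nR q ρ b l : ℕ} (hρ : ρ < nR) (hb : b < lineB nR q) (hl : l < q) :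
    lineIdx nR q ρ b / lineY nR q * l + lineIdx nR q ρ b % lineY nR q < q * lineY nR q := by
  have hY := lineY_pos hρ hb
  have h1 : lineIdx nR q ρ b / lineY nR q < lineY nR q :=
    Nat.div_lt_of_lt_mul (lineIdx_lt hρ hb)
  have h2 : lineIdx nR q ρ b % lineY nR q < lineY nR q := Nat.mod_lt _ hY
  calc lineIdx nR q ρ b / lineY nR q * l + lineIdx nR q ρ b % lineY nR q
      < lineY nR q * l + lineY nR q :=
        add_lt_add_of_le_of_lt (Nat.mul_le_mul_right _ h1.le) h2
    _ = lineY nR q * (l + 1) := by ring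
    _ ≤ lineY nR q * q := Nat.mul_le_mul_left _ hl
    _ = q * lineY nR q := by ring

theorem lineAt_lt {nR q ρ b l : ℕ} (hρ : ρ < nR) (hb : b < lineB nR q) (hl : l < q) :
    lineAt nR q ρ b l < lineB nR q := by
  have h1 := lineVal_lt hρ hb hl
  rw [lineAt, lineB]
  calc l * (q * lineY nR q) +
      (lineIdx nR q ρ b / lineY nR q * l + lineIdx nR q ρ b % lineY nR q)
      < l * (q * lineY nR q) + q * lineY nR q := by omega
    _ = (l + 1) * (q * lineY nR q) := by ring
    _ ≤ q * (q * lineY nR q) := Nat.mul_le_mul_right _ hl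

theorem lineAt_div {nR q ρ b l : ℕ} (hρ : ρ < nR) (hb : b < lineB nR q) (hl : l < q) :
    lineAt nR q ρ b l / (q * lineY nR q) = l := by
  have h1 := lineVal_lt hρ hb hl
  have hpos : 0 < q * lineY nR q := by omega
  rw [lineAt, mul_comm l, Nat.mul_add_div hpos, Nat.div_eq_of_lt h1, add_zero]

theorem lineAt_mod {nR q ρ b l : ℕ} (hρ : ρ < nR) (hb : b < lineB nR q) (hl : l < q) :
    lineAt nR q ρ b l % (q * lineY nR q) =
      lineIdx nR q ρ b / lineY nR q * l + lineIdx nR q ρ b % lineY nR q := by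
  have h1 := lineVal_lt hρ hb hl
  rw [lineAt, mul_comm l, Nat.mul_add_mod, Nat.mod_eq_of_lt h1]

/-- two affine functions that agree at two points are equal -/
theorem affine_unique {α β α' β' l₁ l₂ : ℕ} (h₁ : α * l₁ + β = α' * l₁ + β')
    (h₂ : α * l₂ + β = α' * l₂ + β') (hne : l₁ ≠ l₂) : α = α' ∧ β = β' := by
  have key : ((α : ℤ) - α') * ((l₁ : ℤ) - l₂) = 0 := by
    have e1 : (α : ℤ) * l₁ + β = α' * l₁ + β' := by exact_mod_cast h₁
    have e2 : (α : ℤ) * l₂ + β = α' * l₂ + β' := by exact_mod_cast h₂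
    linear_combination e1 - e2
  have hα : α = α' := by
    rcases mul_eq_zero.1 key with h | h
    · omega
    · exfalso; omega
  subst hα
  exact ⟨rfl, by omega⟩

theorem line_inter {nR q ρ b ρ' b' l₁ l₂ l₁' l₂' : ℕ} (hρ : ρ < nR) (hb : b < lineB nR q)
    (hρ' : ρ' < nR) (hb' : b' < lineB nR q) (hl₁ : l₁ < q) (hl₂ : l₂ < q)
    (hl₁' : l₁' < q) (hl₂' : l₂' < q)
    (h₁ : lineAt nR q ρ b l₁ = lineAt nR q ρ' b' l₁')
    (h₂ : lineAt nR q ρ b l₂ = lineAt nR q ρ' b' l₂') (hne : l₁ ≠ l₂) : ρ = ρ' ∧ b = b' := by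
  have e1 : l₁ = l₁' := by
    rw [← lineAt_div hρ hb hl₁, ← lineAt_div hρ' hb' hl₁', h₁]
  have e2 : l₂ = l₂' := by
    rw [← lineAt_div hρ hb hl₂, ← lineAt_div hρ' hb' hl₂', h₂]
  subst e1 e2
  have f1 : lineAt nR q ρ b l₁ % (q * lineY nR q) = lineAt nR q ρ' b' l₁ % (q * lineY nR q) := by
    rw [h₁]
  have f2 : lineAt nR q ρ b l₂ % (q * lineY nR q) = lineAt nR q ρ' b' l₂ % (q * lineY nR q) := by
    rw [h₂]
  rw [lineAt_mod hρ hb hl₁, lineAt_mod hρ' hb' hl₁] at f1
  rw [lineAt_mod hρ hb hl₂, lineAt_mod hρ' hb' hl₂] at f2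
  obtain ⟨g1, g2⟩ := affine_unique f1 f2 hne
  have hidx : lineIdx nR q ρ b = lineIdx nR q ρ' b' := by
    rw [← Nat.div_add_mod (lineIdx nR q ρ b) (lineY nR q), g1, g2, Nat.div_add_mod]
  have hB : 0 < lineB nR q := by omega
  rw [lineIdx, lineIdx] at hidx
  have k1 : ρ = ρ' := by
    have : (ρ * lineB nR q + b) / lineB nR q = (ρ' * lineB nR q + b') / lineB nR q := by rw [hidx]
    rwa [mul_comm ρ, mul_comm ρ', Nat.mul_add_div hB, Nat.mul_add_div hB, Nat.div_eq_of_lt hb,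
      Nat.div_eq_of_lt hb', add_zero, add_zero] at this
  subst k1
  exact ⟨rfl, by omega⟩

/-- the line design on `Fin (lineB nR q)` -/
def lineDesign (nR q : ℕ) : Design (Fin nR) (Fin (lineB nR q)) q where
  S m := Finset.univ.image fun l : Fin q => ⟨lineAt nR q m.1 m.2 l, lineAt_lt m.1.2 m.2.2 l.2⟩
  card_S m := by
    rw [Finset.card_image_of_injective, Finset.card_fin]
    intro l l' h
    have h1 : lineAt nR q m.1 m.2 l = lineAt nR q m.1 m.2 l' := congrArg Fin.val h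
    apply Fin.ext
    rw [← lineAt_div m.1.2 m.2.2 l.2, h1, lineAt_div m.1.2 m.2.2 l'.2]
  inter m m' hne l₁ l₂ h₁ h₁' h₂ h₂' := by
    simp only [Finset.mem_image, Finset.mem_univ, true_and] at h₁ h₁' h₂ h₂'
    obtain ⟨a, ha⟩ := h₁
    obtain ⟨a', ha'⟩ := h₁'
    obtain ⟨b, hb⟩ := h₂
    obtain ⟨b', hb'⟩ := h₂'
    by_contra hl
    apply hne
    have hab : (a : ℕ) ≠ b := by
      intro h
      apply hl
      rw [← ha, ← hb, Fin.ext h]
    have e1 : lineAt nR q m.1 m.2 a = lineAt nR q m'.1 m'.2 a' := by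
      have := congrArg Fin.val (ha.trans ha'.symm)
      exact this
    have e2 : lineAt nR q m.1 m.2 b = lineAt nR q m'.1 m'.2 b' := by
      have := congrArg Fin.val (hb.trans hb'.symm)
      exact this
    obtain ⟨h1, h2⟩ := line_inter m.1.2 m.2.2 m'.1.2 m'.2.2 a.2 b.2 a'.2 b'.2 e1 e2 hab
    exact Prod.ext (Fin.ext h1) (Fin.ext h2)

theorem mem_lineDesign {nR q : ℕ} {m : Fin nR × Fin (lineB nR q)} {x : Fin (lineB nR q)} :
    x ∈ (lineDesign nR q).S m ↔ ∃ l < q, lineAt nR q m.1 m.2 l = x := by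
  simp only [lineDesign, Finset.mem_image, Finset.mem_univ, true_and]
  constructor
  · rintro ⟨l, rfl⟩
    exact ⟨l, l.2, rfl⟩
  · rintro ⟨l, hl, h⟩
    exact ⟨⟨l, hl⟩, Fin.ext h⟩

end Vale.Agent.P310
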